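import Mathlib

open Matrix Finset

namespace Vale.Agent.Results.P049.CayleyNoGo

/-- A simple graph on a finite vertex set is a `d`-regular Ramanujan graph: it is `d`-regular and
every eigenvalue of its adjacency matrix on the orthogonal complement of the all-ones vector has
absolute value at most `2 * sqrt (d - 1)`. -/
def IsRamanujan {V : Type} [Fintype V] [DecidableEq V] (G : SimpleGraph V) [DecidableRel G.Adj]
    (d : ℕ) : Prop :=
  G.IsRegularOfDegree d ∧
    ∀ (μ : ℝ) (v : V → ℝ), v ≠ 0 → ∑ x, v x = 0 → (G.adjMatrix ℝ) *ᵥ v = μ • v →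
      |μ| ≤ 2 * Real.sqrt ((d : ℝ) - 1)

section rayleigh

variable {V : Type} [Fintype V] [DecidableEq V] (G : SimpleGraph V) [DecidableRel G.Adj]

/-- Rayleigh bound on the complement of the constants. -/
lemma rayleigh_le (d : ℕ) (hR : IsRamanujan G d) (v : V → ℝ) (hv : ∑ x, v x = 0) :
    v ⬝ᵥ ((G.adjMatrix ℝ) *ᵥ v) ≤ 2 * Real.sqrt ((d : ℝ) - 1) * (v ⬝ᵥ v) := by
  classical
  set A := G.adjMatrix ℝ with hAdef
  set c := 2 * Real.sqrt ((d : ℝ) - 1) with hc
  have hsymm : A.IsSymm := G.isSymm_adjMatrix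
  have hA : A.IsHermitian := by
    rw [Matrix.IsHermitian, Matrix.conjTranspose_eq_transpose_of_trivial]
    exact hsymm
  set b := hA.eigenvectorBasis with hb
  set ev := hA.eigenvalues with hev
  -- coefficients
  set a : V → ℝ := fun i => (b i).ofLp ⬝ᵥ v with ha
  have hexp : v = ∑ i, a i • (b i).ofLp := by
    have h := b.sum_repr' (WithLp.toLp 2 v)
    have h2 := congrArg WithLp.ofLp h
    simp only [WithLp.ofLp_sum, WithLp.ofLp_smul] at h2
    rw [← h2]
    apply Finset.sum_congr rfl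
    intro i _
    congr 1
    simp only [ha, EuclideanSpace.inner_eq_star_dotProduct]
    simp [dotProduct_comm]
  have horth : ∀ i j, (b i).ofLp ⬝ᵥ (b j).ofLp = if i = j then 1 else 0 := by
    intro i j
    have h := orthonormal_iff_ite.1 b.orthonormal i j
    rw [EuclideanSpace.inner_eq_star_dotProduct] at h
    simpa [dotProduct_comm] using h
  have hAv : A *ᵥ v = ∑ i, (a i * ev i) • (b i).ofLp := by
    conv_lhs => rw [hexp]
    rw [Matrix.mulVec_sum]
    apply Finset.sum_congr rfl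
    intro i _
    rw [Matrix.mulVec_smul, hA.mulVec_eigenvectorBasis i, smul_smul]
  have h1 : v ⬝ᵥ (A *ᵥ v) = ∑ i, ev i * a i ^ 2 := by
    rw [hAv, dotProduct_sum]
    apply Finset.sum_congr rfl
    intro i _
    rw [dotProduct_smul, dotProduct_comm]
    simp only [ha, smul_eq_mul]
    ring
  have h2 : v ⬝ᵥ v = ∑ i, a i ^ 2 := by
    conv_lhs => rhs; rw [hexp]
    rw [dotProduct_sum]
    apply Finset.sum_congr rfl
    intro i _
    rw [dotProduct_smul, dotProduct_comm]
    simp only [ha, smul_eq_mul]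
    ring
  rw [h1, h2, Finset.mul_sum]
  apply Finset.sum_le_sum
  intro i _
  -- each term
  have heig : A *ᵥ (b i).ofLp = ev i • (b i).ofLp := hA.mulVec_eigenvectorBasis i
  have hbne : (b i).ofLp ≠ 0 := by
    intro h
    have := horth i i
    rw [h] at this
    simp at this
  by_cases hs : ∑ x, (b i).ofLp x = 0
  · have := hR.2 (ev i) (b i).ofLp hbne hs heig
    have h3 : ev i ≤ c := le_trans (le_abs_self _) this
    exact mul_le_mul_of_nonneg_right h3 (sq_nonneg _)
  · -- eigenvalue is d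
    have hone : A *ᵥ (fun _ => (1 : ℝ)) = fun _ => (d : ℝ) := by
      ext x
      have := @SimpleGraph.adjMatrix_mulVec_const_apply_of_regular ℝ V G _ _ _ d 1 hR.1 x
      rw [mul_one] at this
      exact this
    have hd : ev i = d := by
      have e1 : (fun _ => (1 : ℝ)) ⬝ᵥ (A *ᵥ (b i).ofLp) = ev i * ∑ x, (b i).ofLp x := by
        rw [heig, dotProduct_smul]
        simp [dotProduct]
      have e2 : (fun _ => (1 : ℝ)) ⬝ᵥ (A *ᵥ (b i).ofLp) = d * ∑ x, (b i).ofLp x := by
        rw [Matrix.dotProduct_mulVec, ← Matrix.mulVec_transpose, hsymm.eq, hone]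
        simp [dotProduct, Finset.mul_sum]
      have := e1.symm.trans e2
      exact mul_right_cancel₀ hs this
    set n : ℝ := (Fintype.card V : ℝ) with hn
    have hnpos : 0 < n := by
      have : Nonempty V := ⟨i⟩
      simp only [hn]
      exact_mod_cast Fintype.card_pos
    set σ := ∑ x, (b i).ofLp x with hσ
    set w : V → ℝ := fun x => (b i).ofLp x - σ / n with hw
    by_cases hw0 : w = 0
    · have hbi : ∀ x, (b i).ofLp x = σ / n := by
        intro x
        have := congrFun hw0 x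
        simp only [hw, Pi.zero_apply] at this
        linarith
      have : a i = 0 := by
        simp only [ha, dotProduct]
        simp only [hbi, ← Finset.mul_sum, hv, mul_zero]
      rw [this]; simp
    · have hwsum : ∑ x, w x = 0 := by
        simp only [hw, Finset.sum_sub_distrib, Finset.sum_const, Finset.card_univ, nsmul_eq_mul]
        rw [← hσ, ← hn]
        field_simp
        ring
      have hweig : A *ᵥ w = ev i • w := by
        have : w = (b i).ofLp - (σ / n) • (fun _ => (1 : ℝ)) := by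
          ext x; simp [hw]
        rw [this, Matrix.mulVec_sub, Matrix.mulVec_smul, heig, hone, hd]
        ext x
        simp
        ring
      have := hR.2 (ev i) w hw0 hwsum hweig
      have h3 : ev i ≤ c := le_trans (le_abs_self _) this
      exact mul_le_mul_of_nonneg_right h3 (sq_nonneg _)

end rayleigh


section characters

/-- The rescaled argument, in the interval `(0, 20]`. -/
noncomputable def ang (z : ℂ) : ℝ := (Complex.arg z + Real.pi) * (10 / Real.pi)

lemma ang_pos (z : ℂ) : 0 < ang z := by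
  unfold ang
  have := Complex.neg_pi_lt_arg z
  have hpi := Real.pi_pos
  have : 0 < Complex.arg z + Real.pi := by linarith
  positivity

lemma ang_le (z : ℂ) : ang z ≤ 20 := by
  unfold ang
  have := Complex.arg_le_pi z
  have hpi := Real.pi_pos
  have h1 : Complex.arg z + Real.pi ≤ 2 * Real.pi := by linarith
  calc (Complex.arg z + Real.pi) * (10 / Real.pi) ≤ (2 * Real.pi) * (10 / Real.pi) := by
        apply mul_le_mul_of_nonneg_right h1; positivity
    _ = 20 := by field_simp; norm_num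

/-- One of twenty arcs of the circle. -/
noncomputable def bucket (z : ℂ) : Fin 20 :=
  ⟨⌈ang z⌉₊ - 1, by
    have h1 : ⌈ang z⌉₊ ≤ 20 := by
      apply Nat.ceil_le.2
      exact_mod_cast ang_le z
    have h2 : 0 < ⌈ang z⌉₊ := Nat.ceil_pos.2 (ang_pos z)
    omega⟩

lemma abs_arg_sub_le {z w : ℂ} (h : bucket z = bucket w) :
    |Complex.arg z - Complex.arg w| ≤ Real.pi / 10 := by
  have h1 : ⌈ang z⌉₊ - 1 = ⌈ang w⌉₊ - 1 := congrArg Fin.val h
  have hz : 0 < ⌈ang z⌉₊ := Nat.ceil_pos.2 (ang_pos z)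
  have hw : 0 < ⌈ang w⌉₊ := Nat.ceil_pos.2 (ang_pos w)
  have h2 : ⌈ang z⌉₊ = ⌈ang w⌉₊ := by omega
  have a1 := Nat.le_ceil (ang z)
  have a2 := Nat.ceil_lt_add_one (ang_pos z).le
  have b1 := Nat.le_ceil (ang w)
  have b2 := Nat.ceil_lt_add_one (ang_pos w).le
  rw [h2] at a1 a2
  have h3 : |ang z - ang w| ≤ 1 := by
    rw [abs_le]; constructor <;> linarith
  have hpi := Real.pi_pos
  have h4 : ang z - ang w = (Complex.arg z - Complex.arg w) * (10 / Real.pi) := by
    unfold ang; ring
  rw [h4, abs_mul, abs_of_pos (by positivity : 0 < 10 / Real.pi)] at h3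
  have h5 : |Complex.arg z - Complex.arg w| = |Complex.arg z - Complex.arg w| * (10 / Real.pi)
      * (Real.pi / 10) := by field_simp
  rw [h5]
  calc |Complex.arg z - Complex.arg w| * (10 / Real.pi) * (Real.pi / 10)
      ≤ 1 * (Real.pi / 10) := by
        apply mul_le_mul_of_nonneg_right h3; positivity
    _ = Real.pi / 10 := one_mul _

lemma re_mul_inv_ge {z w : ℂ} (hz : ‖z‖ = 1) (hw : ‖w‖ = 1) (h : bucket z = bucket w) :
    (19 / 20 : ℝ) ≤ (z * w⁻¹).re := by
  have h1 := abs_arg_sub_le h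
  have ez : z = Complex.exp (Complex.arg z * Complex.I) := by
    have := Complex.norm_mul_exp_arg_mul_I z
    rw [hz] at this
    simpa using this.symm
  have ew : w = Complex.exp (Complex.arg w * Complex.I) := by
    have := Complex.norm_mul_exp_arg_mul_I w
    rw [hw] at this
    simpa using this.symm
  have e : z * w⁻¹ = Complex.exp (((Complex.arg z - Complex.arg w : ℝ) : ℂ) * Complex.I) := by
    conv_lhs => rw [ez, ew]
    rw [← Complex.exp_neg, ← Complex.exp_add]
    congr 1
    push_cast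
    ring
  rw [e, Complex.exp_ofReal_mul_I_re]
  set δ := Complex.arg z - Complex.arg w with hδ
  have h2 := Real.one_sub_sq_div_two_le_cos (x := δ)
  have hpi : Real.pi < 3.15 := Real.pi_lt_d2
  have hpi0 := Real.pi_pos
  have h3 : δ ^ 2 ≤ (Real.pi / 10) ^ 2 := by
    rw [← sq_abs δ]
    apply pow_le_pow_left₀ (abs_nonneg _) h1
  have h4 : (Real.pi / 10) ^ 2 ≤ 0.1 := by nlinarith
  linarith

lemma char_norm {A : Type} [CommGroup A] [Finite A] (χ : A →* ℂˣ) (a : A) :
    ‖((χ a : ℂˣ) : ℂ)‖ = 1 := by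
  apply Complex.norm_eq_one_of_pow_eq_one (n := Nat.card A)
  · have : (χ a) ^ Nat.card A = 1 := by
      rw [← map_pow, pow_card_eq_one', map_one]
    have h2 := congrArg (fun u : ℂˣ => (u : ℂ)) this
    simpa using h2
  · exact Nat.card_pos.ne'

lemma exists_char {A : Type} [CommGroup A] [Finite A] {ι : Type} [Fintype ι] (e : ι → A)
    (hcard : 20 ^ Fintype.card ι < Nat.card A) :
    ∃ χ : A →* ℂˣ, χ ≠ 1 ∧ ∀ i, (19 / 20 : ℝ) ≤ ((χ (e i) : ℂˣ) : ℂ).re := by
  classical
  have hc : Nat.card (A →* ℂˣ) = Nat.card A :=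
    CommGroup.card_monoidHom_of_hasEnoughRootsOfUnity A ℂ
  have hfin : Finite (A →* ℂˣ) := by
    apply Nat.finite_of_card_ne_zero
    rw [hc]
    exact Nat.card_pos.ne'
  let Φ : (A →* ℂˣ) → (ι → Fin 20) := fun χ i => bucket ((χ (e i) : ℂˣ) : ℂ)
  have : Fintype (A →* ℂˣ) := Fintype.ofFinite _
  have hlt : Fintype.card (ι → Fin 20) < Fintype.card (A →* ℂˣ) := by
    rw [← Nat.card_eq_fintype_card (α := (A →* ℂˣ)), hc]
    simpa using hcard
  obtain ⟨χ₁, χ₂, hne, heq⟩ := Fintype.exists_ne_map_eq_of_card_lt Φ hlt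
  refine ⟨χ₁ * χ₂⁻¹, ?_, ?_⟩
  · intro h
    apply hne
    exact mul_inv_eq_one.1 h
  · intro i
    have h1 : bucket ((χ₁ (e i) : ℂˣ) : ℂ) = bucket ((χ₂ (e i) : ℂˣ) : ℂ) := congrFun heq i
    have := re_mul_inv_ge (char_norm χ₁ (e i)) (char_norm χ₂ (e i)) h1
    simpa using this

lemma sum_char_eq_zero {A : Type} [CommGroup A] [Fintype A] (χ : A →* ℂˣ) (hχ : χ ≠ 1) :
    ∑ a, ((χ a : ℂˣ) : ℂ) = 0 := by
  obtain ⟨a₀, ha₀⟩ : ∃ a₀, χ a₀ ≠ 1 := by
    by_contra h
    apply hχ
    ext a
    have : χ a = 1 := by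
      by_contra h2
      exact h ⟨a, h2⟩
    simp [this]
  have h1 : ∑ a, ((χ a : ℂˣ) : ℂ) = ((χ a₀ : ℂˣ) : ℂ) * ∑ a, ((χ a : ℂˣ) : ℂ) := by
    rw [Finset.mul_sum]
    rw [← Equiv.sum_comp (Equiv.mulLeft a₀)]
    apply Finset.sum_congr rfl
    intro a _
    simp
  have h2 : (((χ a₀ : ℂˣ) : ℂ) - 1) * ∑ a, ((χ a : ℂˣ) : ℂ) = 0 := by
    rw [sub_mul, one_mul, ← h1, sub_self]
  rcases mul_eq_zero.1 h2 with h3 | h3
  · exfalso
    apply ha₀
    ext
    simpa [sub_eq_zero] using h3
  · exact h3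

end characters


section main

variable {G : Type} [Group G] [Fintype G] [DecidableEq G]

/-- The symmetrised connection set of the Cayley graph. -/
def conn (s : Set G) [DecidablePred (· ∈ s)] : Finset G :=
  univ.filter (fun g => g ≠ 1 ∧ (g ∈ s ∨ g⁻¹ ∈ s))

lemma adj_iff (s : Set G) [DecidablePred (· ∈ s)] (u v : G) :
    (SimpleGraph.mulCayley s).Adj u v ↔ u⁻¹ * v ∈ conn s := by
  rw [SimpleGraph.mulCayley_adj]
  simp only [conn, mem_filter, mem_univ, true_and, _root_.mul_inv_rev, inv_inv]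
  constructor
  · rintro ⟨h1, h2⟩
    refine ⟨?_, h2⟩
    intro h
    apply h1
    exact (inv_mul_eq_one.1 h)
  · rintro ⟨h1, h2⟩
    refine ⟨?_, h2⟩
    intro h
    apply h1
    rw [h]; simp

lemma sum_neighbor (s : Set G) [DecidablePred (· ∈ s)] (x : G) (f : G → ℝ) :
    ∑ u ∈ (SimpleGraph.mulCayley s).neighborFinset x, f u = ∑ t ∈ conn s, f (x * t) := by
  symm
  apply Finset.sum_nbij' (fun t => x * t) (fun u => x⁻¹ * u)
  · intro t ht
    rw [SimpleGraph.mem_neighborFinset, adj_iff]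
    simpa using ht
  · intro u hu
    rw [SimpleGraph.mem_neighborFinset, adj_iff] at hu
    exact hu
  · intro t _; simp
  · intro u _; simp
  · intro t _; rfl

lemma card_conn (s : Set G) [DecidablePred (· ∈ s)] (d : ℕ)
    (hreg : (SimpleGraph.mulCayley s).IsRegularOfDegree d) : (conn s).card = d := by
  have h1 := hreg 1
  rw [← SimpleGraph.card_neighborFinset_eq_degree] at h1
  rw [← h1]
  congr 1
  ext g
  rw [SimpleGraph.mem_neighborFinset, adj_iff]
  simp

lemma numeric (d : ℕ) (hd : 3 ≤ d) : 2 * Real.sqrt ((d : ℝ) - 1) < 19 / 20 * (d : ℝ) := by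
  have hd' : (3 : ℝ) ≤ d := by exact_mod_cast hd
  have h1 : Real.sqrt ((d : ℝ) - 1) < 19 / 40 * (d : ℝ) := by
    rw [Real.sqrt_lt' (by positivity)]
    nlinarith
  linarith

theorem general (H : Subgroup G) (hH : ∀ a ∈ H, ∀ b ∈ H, a * b = b * a) (d : ℕ) (hd : 3 ≤ d)
    (hbig : 20 ^ (H.index * d) < Nat.card H) (s : Set G) [DecidablePred (· ∈ s)] :
    ¬ IsRamanujan (SimpleGraph.mulCayley s) d := by
  intro hRam
  let _ : CommGroup H :=
    { (inferInstance : Group H) with mul_comm := fun a b => Subtype.ext (hH a a.2 b b.2) }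
  obtain ⟨R, hR, _⟩ := H.exists_isComplement_right 1
  have : Fintype R := Fintype.ofFinite R
  have : Fintype H := Fintype.ofFinite H
  have hT : (conn s).card = d := card_conn s d hRam.1
  let e : R × (conn s) → H := fun p => (hR.equiv ((p.1 : G) * (p.2 : G))).1
  have hcardι : Fintype.card (R × (conn s)) = H.index * d := by
    rw [Fintype.card_prod, Fintype.card_coe, hT, ← Nat.card_eq_fintype_card, hR.card_right]
  obtain ⟨χ, hχ1, hχ⟩ := exists_char e (by rw [hcardι]; exact hbig)
  let f : G → ℂ := fun x => ((χ (hR.equiv x).1 : ℂˣ) : ℂ)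
  have hfnorm : ∀ x, (f x).re ^ 2 + (f x).im ^ 2 = 1 := by
    intro x
    have h1 : ‖f x‖ = 1 := char_norm χ _
    have h2 := Complex.sq_norm (f x)
    rw [h1, Complex.normSq_apply] at h2
    nlinarith
  have hfsum : ∑ x, f x = 0 := by
    have h1 : ∑ x, f x = ∑ p : H × R, ((χ p.1 : ℂˣ) : ℂ) :=
      Equiv.sum_comp hR.equiv (fun p : H × R => ((χ p.1 : ℂˣ) : ℂ))
    rw [h1, Fintype.sum_prod_type_right]
    apply Finset.sum_eq_zero
    intro r _
    exact sum_char_eq_zero χ hχ1
  have hfmul : ∀ (x : G) (t : conn s),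
      f (x * t) = f x * ((χ (e ((hR.equiv x).2, t)) : ℂˣ) : ℂ) := by
    intro x t
    have h1 : x * (t : G) = ((hR.equiv x).1 : G) * (((hR.equiv x).2 : G) * (t : G)) := by
      rw [← mul_assoc, hR.equiv_fst_mul_equiv_snd]
    have h2 := hR.equiv_mul_left (hR.equiv x).1 (((hR.equiv x).2 : G) * (t : G))
    simp only [f]
    rw [h1, h2]
    simp [e]
  set v : G → ℝ := fun x => (f x).re with hv
  set w : G → ℝ := fun x => (f x).im with hw
  have hvsum : ∑ x, v x = 0 := by
    have := congrArg Complex.re hfsum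
    simpa using this
  have hwsum : ∑ x, w x = 0 := by
    have := congrArg Complex.im hfsum
    simpa using this
  have r1 := rayleigh_le (SimpleGraph.mulCayley s) d hRam v hvsum
  have r2 := rayleigh_le (SimpleGraph.mulCayley s) d hRam w hwsum
  set c := 2 * Real.sqrt ((d : ℝ) - 1) with hc
  have hquad : ∀ u : G → ℝ, u ⬝ᵥ ((SimpleGraph.mulCayley s).adjMatrix ℝ *ᵥ u)
      = ∑ x, ∑ t : conn s, u x * u (x * t) := by
    intro u
    simp only [dotProduct]
    apply Finset.sum_congr rfl
    intro x _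
    rw [SimpleGraph.adjMatrix_mulVec_apply, sum_neighbor, Finset.mul_sum]
    exact (Finset.sum_coe_sort (conn s) (fun t => u x * u (x * t))).symm
  have hsum : v ⬝ᵥ ((SimpleGraph.mulCayley s).adjMatrix ℝ *ᵥ v)
      + w ⬝ᵥ ((SimpleGraph.mulCayley s).adjMatrix ℝ *ᵥ w)
      = ∑ x, ∑ t : conn s, ((χ (e ((hR.equiv x).2, t)) : ℂˣ) : ℂ).re := by
    rw [hquad, hquad, ← Finset.sum_add_distrib]
    apply Finset.sum_congr rfl
    intro x _
    rw [← Finset.sum_add_distrib]
    apply Finset.sum_congr rfl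
    intro t _
    simp only [hv, hw]
    rw [hfmul x t, Complex.mul_re, Complex.mul_im]
    have := hfnorm x
    set z := ((χ (e ((hR.equiv x).2, t)) : ℂˣ) : ℂ)
    calc (f x).re * ((f x).re * z.re - (f x).im * z.im)
          + (f x).im * ((f x).re * z.im + (f x).im * z.re)
        = ((f x).re ^ 2 + (f x).im ^ 2) * z.re := by ring
      _ = z.re := by rw [this, one_mul]
  have hlow : (19 / 20 : ℝ) * d * Fintype.card G
      ≤ ∑ x, ∑ t : conn s, ((χ (e ((hR.equiv x).2, t)) : ℂˣ) : ℂ).re := by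
    have : ∀ x : G, (19 / 20 : ℝ) * d
        ≤ ∑ t : conn s, ((χ (e ((hR.equiv x).2, t)) : ℂˣ) : ℂ).re := by
      intro x
      calc (19 / 20 : ℝ) * d = ∑ _t : conn s, (19 / 20 : ℝ) := by
            rw [Finset.sum_const, Finset.card_univ, Fintype.card_coe, hT]
            simp; ring
        _ ≤ _ := Finset.sum_le_sum (fun t _ => hχ _)
    calc (19 / 20 : ℝ) * d * Fintype.card G = ∑ _x : G, (19 / 20 : ℝ) * d := by
          rw [Finset.sum_const, Finset.card_univ]
          simp; ring
      _ ≤ _ := Finset.sum_le_sum (fun x _ => this x)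
  have hnorm : v ⬝ᵥ v + w ⬝ᵥ w = Fintype.card G := by
    simp only [dotProduct, ← Finset.sum_add_distrib]
    calc ∑ x, (v x * v x + w x * w x) = ∑ _x : G, (1 : ℝ) := by
          apply Finset.sum_congr rfl
          intro x _
          have := hfnorm x
          simp only [hv, hw]
          nlinarith
      _ = Fintype.card G := by simp
  have hGpos : (0 : ℝ) < Fintype.card G := by
    have : 0 < Fintype.card G := Fintype.card_pos
    exact_mod_cast this
  have hfinal : (19 / 20 : ℝ) * d * Fintype.card G ≤ c * Fintype.card G := by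
    calc (19 / 20 : ℝ) * d * Fintype.card G ≤ _ := hlow
      _ = _ := hsum.symm
      _ ≤ c * (v ⬝ᵥ v) + c * (w ⬝ᵥ w) := add_le_add r1 r2
      _ = c * Fintype.card G := by rw [← mul_add, hnorm]
  have := le_of_mul_le_mul_right hfinal hGpos
  have h2 := numeric d hd
  linarith

theorem order_mul_prime (d k p : ℕ) (hd : 3 ≤ d) (hp : p.Prime) (hbig : 20 ^ (k * d) < p)
    (hG : Fintype.card G = k * p) (s : Set G) [DecidablePred (· ∈ s)] :
    ¬ IsRamanujan (SimpleGraph.mulCayley s) d := by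
  have : Fact p.Prime := ⟨hp⟩
  obtain ⟨g, hg⟩ := exists_prime_orderOf_dvd_card p (by rw [hG]; exact dvd_mul_left p k)
  have hcard : Nat.card (Subgroup.zpowers g) = p := by rw [Nat.card_zpowers, hg]
  have hidx : (Subgroup.zpowers g).index = k := by
    have h1 := (Subgroup.zpowers g).index_mul_card
    rw [hcard, Nat.card_eq_fintype_card, hG] at h1
    exact Nat.eq_of_mul_eq_mul_right hp.pos h1
  apply general (Subgroup.zpowers g) _ d hd _ s
  · intro a ha b hb
    obtain ⟨m, rfl⟩ := Subgroup.mem_zpowers_iff.1 ha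
    obtain ⟨n, rfl⟩ := Subgroup.mem_zpowers_iff.1 hb
    exact ((Commute.refl g).zpow_zpow m n)
  · rw [hidx, hcard]; exact hbig

end main

/-- (1) If a finite group `G` has a commutative subgroup `H` with `20 ^ ([G : H] * d) < |H|`, then no
Cayley graph of `G` is a `d`-regular Ramanujan graph (`d ≥ 3`).
(2) In particular, for a prime `p > 20 ^ (k * d)`, no Cayley graph of any group of order `k * p`
is a `d`-regular Ramanujan graph. -/
theorem result :
    (∀ (G : Type) [Group G] [Fintype G] [DecidableEq G] (H : Subgroup G),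
      (∀ a ∈ H, ∀ b ∈ H, a * b = b * a) → ∀ d : ℕ, 3 ≤ d → 20 ^ (H.index * d) < Nat.card H →
      ∀ (s : Set G) [DecidablePred (· ∈ s)], ¬ IsRamanujan (SimpleGraph.mulCayley s) d) ∧
    (∀ d k p : ℕ, 3 ≤ d → p.Prime → 20 ^ (k * d) < p →
      ∀ (G : Type) [Group G] [Fintype G] [DecidableEq G], Fintype.card G = k * p →
      ∀ (s : Set G) [DecidablePred (· ∈ s)], ¬ IsRamanujan (SimpleGraph.mulCayley s) d) :=
  ⟨fun _ _ _ _ H hH d hd hbig s _ => general H hH d hd hbig s,
   fun d k p hd hp hbig _ _ _ _ hG s _ => order_mul_prime d k p hd hp hbig hG s⟩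

end Vale.Agent.Results.P049.CayleyNoGo
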